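import Vale.Agent.P233.Bd3.B1

/-!
P233, block A5sup: for a bounded Lipschitz function `a` the resolvent `J_δ a` is close to `a` in the
sup norm, `|J_δ a - a| ≤ 3 √N L √δ`, and `|Δ J_δ a| ≤ 3 √N L / √δ`.
-/

set_option linter.all false

open MeasureTheory Filter Topology
open scoped ENNReal NNReal

namespace Vale.Agent.P233

variable {M : Type*} [MeasurableSpace M] {m : Measure M} {C : Calc m}

namespace IsDir

variable (hC : IsDir C)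
include hC
variable {δ lam : ℝ} {f h σ : M →ₘ[m] ℝ}

/-- Jensen's inequality for the resolvent, with a weight. -/
theorem J_jensen (hδ : 0 < δ) (hσ : MemLp σ 2 m) (hσ' : MemLp σ ∞ m) (hσ0 : 0 ≤ σ)
    (hh : MemLp h 2 m) (hh' : MemLp h ∞ m) :
    I (σ * C.J δ h ^ 2) ≤ I (C.J δ σ * h ^ 2) := by
  set u := C.J δ h with hu
  set φ := C.J δ σ with hφ
  have huW : u ∈ C.W := hC.J_mem hδ hh
  have hφW : φ ∈ C.W := hC.J_mem hδ hσ
  have hφ0 : 0 ≤ φ := hC.J_nonneg hδ hσ hσ0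
  have huA : u ∈ C.A := by
    obtain ⟨K, hK⟩ := mem_top_iff.1 hh'
    exact ⟨huW, mem_top_iff.2 ⟨K, hC.J_bdd hδ hh hK⟩⟩
  have hφA : φ ∈ C.A := by
    obtain ⟨K, hK⟩ := mem_top_iff.1 hσ'
    exact ⟨hφW, mem_top_iff.2 ⟨K, hC.J_bdd hδ hσ hK⟩⟩
  have hu2 := hC.memLp _ huW
  have hφ2 := hC.memLp _ hφW
  have huu := hC.mul_mem_A huA huA
  have hφu := hC.mul_mem_A hφA huA
  have a1 := (hC.J_spec hδ hσ).2 _ huu.1
  have a2 := (hC.J_spec hδ hh).2 _ hφu.1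
  rw [← hφ] at a1
  rw [← hu] at a2
  have m1 : MemLp (u * C.Γ φ u : M →ₘ[m] ℝ) 1 m := mem_mul_top huA.2 (hC.Γ_mem1 hφW huW)
  have m2 : MemLp (φ * C.Γ u u : M →ₘ[m] ℝ) 1 m := mem_mul_top hφA.2 (hC.Γ_mem1 huW huW)
  have e1 : I (C.Γ φ (u * u)) = 2 * I (u * C.Γ φ u) := by
    rw [hC.Γ_mul_right huA huA hφW, I_add m1 m1]; ring
  have e2 : I (C.Γ u (φ * u)) = I (φ * C.Γ u u) + I (u * C.Γ φ u) := by
    rw [hC.Γ_mul_right hφA huA huW, hC.symm u huW φ hφW, I_add m2 m1]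
  rw [e1] at a1
  rw [e2] at a2
  have e3 : u * (φ * u) = φ * (u * u) := by ring
  rw [e3] at a2
  have m3 : MemLp (φ * (u * u) : M →ₘ[m] ℝ) 1 m := mem_mul_top hφA.2 (mem_mul_22 hu2 hu2)
  have m4 : MemLp (h * (φ * u) : M →ₘ[m] ℝ) 1 m := mem_mul_22 hh (hC.memLp _ hφu.1)
  have m5 : MemLp (φ * h ^ 2 : M →ₘ[m] ℝ) 1 m := mem_mul_top hφA.2 (mem_sq hh)
  have m6 : MemLp (φ * (h - u) ^ 2 : M →ₘ[m] ℝ) 1 m :=
    mem_mul_top hφA.2 (mem_sq (mem_sub hh hu2))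
  have a3 : 0 ≤ I (φ * C.Γ u u) := I_nonneg (mul_nonneg hφ0 (hC.nonneg u huW))
  have a4 : 0 ≤ I (φ * (h - u) ^ 2) := I_nonneg (mul_nonneg hφ0 (sq_nonneg' _))
  have e4 : φ * (h - u) ^ 2 = φ * h ^ 2 - (h * (φ * u) + h * (φ * u)) + φ * (u * u) := by ring
  rw [e4, I_add (mem_sub m5 (mem_add m4 m4)) m3, I_sub m5 (mem_add m4 m4), I_add m4 m4] at a4
  have e5 : σ * u ^ 2 = σ * (u * u) := by ring
  rw [e5, ← a1]
  have a5 : 0 ≤ δ * I (φ * C.Γ u u) := mul_nonneg hδ.le a3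
  linarith only [a2, a4, a5]

/-- the resolvent identity -/
theorem J_sub_J (hδ : 0 < δ) (hl : 0 < lam) (hf : MemLp f 2 m) :
    C.J δ f - C.J lam f = (δ - lam) • C.J δ (lam⁻¹ • (C.J lam f - f)) := by
  set u := C.J lam f with hu
  have hLap := hC.J_isLap hl hf
  rw [← hu] at hLap
  set h := lam⁻¹ • (u - f) with hh
  have h2 : MemLp h 2 m := hLap.2.1
  have hu2 : MemLp u 2 m := hC.memLp _ hLap.1
  have e1 : f = u - lam • h := by
    rw [hh, smul_smul, mul_inv_cancel₀ hl.ne', one_smul]; abel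
  -- `J_δ (u - δ h) = u`
  have e2 : C.J δ (u - δ • h) = u := by
    refine hC.J_eq hδ ⟨hLap.1, fun k hk => ?_⟩
    have hk2 := hC.memLp _ hk
    have e3 : I (C.Γ u k) = -I (h * k) := hLap.2.2 _ hk
    have e6 : (u - δ • h) * k = u * k - δ • (h * k) := by rw [sub_mul, smul_mul_assoc]
    rw [e3, e6, I_sub (mem_mul_22 hu2 hk2) (mem_smul _ (mem_mul_22 h2 hk2)), I_smul]
    ring
  rw [hC.J_sub hδ hu2 (mem_smul _ h2), hC.J_smul hδ _ h2] at e2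
  have e4 : C.J δ u = u + δ • C.J δ h := by
    rw [sub_eq_iff_eq_add] at e2; exact e2
  have e5 : C.J δ f = C.J δ u - lam • C.J δ h := by
    conv_lhs => rw [e1]
    rw [hC.J_sub hδ hu2 (mem_smul _ h2), hC.J_smul hδ _ h2]
  rw [e5, e4, sub_smul]
  abel

end IsDir

namespace IsGamma

variable (hC : IsGamma C) {κ N : ℝ}
variable {f : M →ₘ[m] ℝ}
include hC

/-- the bound of `Δ J_δ J_lam f` for `lam ≤ δ` -/
theorem lap_JJ_le [SigmaFinite m] (hN : 0 < N) (hB : C.BE κ N) {δ lam L : ℝ} (hl : 0 < lam)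
    (hld : lam ≤ δ) (hl2 : 4 * lam * |κ| ≤ 1) (hL0 : 0 ≤ L) (hf : f ∈ C.A)
    (hL : ∀ᵐ x ∂m, |C.Γ f f x| ≤ L ^ 2) :
    ∀ᵐ x ∂m, |C.J δ (lam⁻¹ • (C.J lam f - f)) x| ≤ √N * L / √lam := by
  have hD := hC.toIsDir
  have hBi := hC.bei hN hB
  have hδ : 0 < δ := hl.trans_le hld
  have hf2 := hC.memLp f hf.1
  have hk1 : -(1 / 2) ≤ 2 * lam * κ := by
    have := neg_abs_le κ
    have h3 : lam * -|κ| ≤ lam * κ := mul_le_mul_of_nonneg_left this hl.le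
    linarith only [h3, hl2]
  have hk2 : 0 < 1 + 2 * lam * κ := by linarith only [hk1]
  have hgr := hC.J_grad_le hBi hl hk2 hf (sq_nonneg L) hL
  have hLap := hD.J_isLap hl hf2
  have huA : C.J lam f ∈ C.A := by
    obtain ⟨K, hK⟩ := mem_top_iff.1 hf.2
    exact ⟨hLap.1, mem_top_iff.2 ⟨K, hD.J_bdd hl hf2 hK⟩⟩
  set u := C.J lam f with hu
  set h := lam⁻¹ • (u - f) with hh
  have huW : u ∈ C.W := hLap.1
  have hhA : h ∈ C.A := hD.A_smul _ (hD.A_sub huA hf)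
  have hh2 := hC.memLp _ hhA.1
  have hΓuu := hC.mem1 u huW
  have hΓff := hC.mem1 f hf.1
  have hJ2 : MemLp (C.J δ h) 2 m := hD.J_mem2 hδ hh2
  have hN0 : 0 ≤ N * L ^ 2 / lam := by positivity
  have key : ∀ᵐ x ∂m, (C.J δ h ^ 2) x ≤ N * L ^ 2 / lam := by
    refine le_const_of_forall (mem_sq hJ2) hN0 fun σ h0 h2 h1 ht => ?_
    set φ := C.J δ σ with hφ
    have hφLap := hD.J_isLap hδ h2
    rw [← hφ] at hφLap
    have hφ0 : 0 ≤ φ := hD.J_nonneg hδ h2 h0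
    obtain ⟨B, hB0⟩ := mem_top_iff.1 ht
    have hφt : MemLp φ ∞ m := mem_top_iff.2 ⟨B, hD.J_bdd hδ h2 hB0⟩
    have hφ1 := hD.J_L1 hδ h2 h1 h0
    rw [← hφ] at hφ1
    have j1 := hD.J_jensen hδ h2 ht h0 hh2 hhA.2
    rw [← hφ] at j1
    rw [mul_comm]
    refine j1.trans ?_
    -- the Bochner inequality
    have hbe : I (φ * (C.Γ u h + κ • C.Γ u u + N⁻¹ • h ^ 2)) ≤
        I ((2 : ℝ)⁻¹ • (C.Γ u u * (δ⁻¹ • (φ - σ)))) :=
      hB u h φ _ hLap hhA.1 hφLap hφ0 hφt (mem_smul _ (mem_sub hφt ht))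
    have hlow : I (φ * ((2 * lam)⁻¹ • C.Γ u u - (2 * lam)⁻¹ • C.Γ f f + κ • C.Γ u u
        + N⁻¹ • h ^ 2)) ≤ I (φ * (C.Γ u h + κ • C.Γ u u + N⁻¹ • h ^ 2)) := by
      refine I_mono (mem_mul_top hφt (mem_add (mem_add (mem_sub (mem_smul _ hΓuu)
        (mem_smul _ hΓff)) (mem_smul _ hΓuu)) (mem_smul _ (mem_sq hh2))))
        (mem_mul_top hφt (mem_add (mem_add (hD.Γ_mem1 huW hhA.1) (mem_smul _ hΓuu))
        (mem_smul _ (mem_sq hh2)))) ?_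
      refine mul_le_mul_of_nonneg_left ?_ hφ0
      refine add_le_add (add_le_add ?_ le_rfl) le_rfl
      have e2 : C.Γ u h = lam⁻¹ • (C.Γ u u - C.Γ u f) := by
        rw [hh, hD.Γ_smul_right _ huW (hD.sub_mem huW hf.1), hD.Γ_sub_right huW huW hf.1]
      rw [le_iff_ae, e2]
      have hnn := hC.nonneg _ (hD.sub_mem huW hf.1)
      rw [hD.Γ_sub_left huW hf.1 (hD.sub_mem huW hf.1), hD.Γ_sub_right huW huW hf.1,
        hD.Γ_sub_right hf.1 huW hf.1, hD.symm f hf.1 u huW, nonneg_iff_ae] at hnn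
      filter_upwards [hnn, sub_ae (C.Γ u u - C.Γ u f) (C.Γ u f - C.Γ f f),
        sub_ae (C.Γ u u) (C.Γ u f), sub_ae (C.Γ u f) (C.Γ f f),
        sub_ae ((2 * lam)⁻¹ • C.Γ u u) ((2 * lam)⁻¹ • C.Γ f f), smul_ae (C.Γ u u) (2 * lam)⁻¹,
        smul_ae (C.Γ f f) (2 * lam)⁻¹, smul_ae (C.Γ u u - C.Γ u f) lam⁻¹]
          with x a1 a2 a3 a4 a5 a6 a7 a8
      rw [a2, a3, a4] at a1
      rw [a5, a6, a7, a8, a3, mul_inv]
      have hli : 0 < lam⁻¹ := inv_pos.2 hl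
      linarith only [mul_nonneg hli.le a1]
    have m1 : MemLp (φ * C.Γ u u : M →ₘ[m] ℝ) 1 m := mem_mul_top hφt hΓuu
    have m2 : MemLp (φ * C.Γ f f : M →ₘ[m] ℝ) 1 m := mem_mul_top hφt hΓff
    have m3 : MemLp (φ * h ^ 2 : M →ₘ[m] ℝ) 1 m := mem_mul_top hφt (mem_sq hh2)
    have m4 : MemLp (C.Γ u u * σ : M →ₘ[m] ℝ) 1 m := mem_top_mul hΓuu ht
    have e3 : φ * ((2 * lam)⁻¹ • C.Γ u u - (2 * lam)⁻¹ • C.Γ f f + κ • C.Γ u u + N⁻¹ • h ^ 2) =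
        (2 * lam)⁻¹ • (φ * C.Γ u u) - (2 * lam)⁻¹ • (φ * C.Γ f f) + κ • (φ * C.Γ u u)
          + N⁻¹ • (φ * h ^ 2) := by
      rw [mul_add, mul_add, mul_sub, mul_smul_comm, mul_smul_comm, mul_smul_comm, mul_smul_comm]
    rw [e3, I_add (mem_add (mem_sub (mem_smul _ m1) (mem_smul _ m2)) (mem_smul _ m1))
      (mem_smul _ m3), I_add (mem_sub (mem_smul _ m1) (mem_smul _ m2)) (mem_smul _ m1),
      I_sub (mem_smul _ m1) (mem_smul _ m2), I_smul, I_smul, I_smul, I_smul] at hlow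
    have e4 : (2 : ℝ)⁻¹ • (C.Γ u u * (δ⁻¹ • (φ - σ))) =
        (2 * δ)⁻¹ • (φ * C.Γ u u - C.Γ u u * σ) := by
      rw [mul_smul_comm, smul_smul, mul_sub, mul_comm (C.Γ u u) φ, mul_inv]
    rw [e4, I_smul, I_sub m1 m4] at hbe
    have n1 : 0 ≤ I (φ * C.Γ u u) := I_nonneg (mul_nonneg hφ0 (hC.nonneg u huW))
    have n2 : 0 ≤ I (C.Γ u u * σ) := I_nonneg (mul_nonneg (hC.nonneg u huW) h0)
    have n3 : 0 ≤ I φ := I_nonneg hφ0
    have b1 : I (φ * C.Γ f f) ≤ L ^ 2 * I φ := by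
      rw [← I_smul]
      refine I_mono m2 (mem_smul _ hφ1.1) ?_
      rw [le_iff_ae]
      filter_upwards [mul_ae φ (C.Γ f f), smul_ae φ (L ^ 2), nonneg_iff_ae.1 hφ0, hL]
        with x a1 a2 a3 a4
      rw [a1, a2, mul_comm (L ^ 2)]
      exact mul_le_mul_of_nonneg_left ((le_abs_self _).trans a4) a3
    have b2 : I (φ * C.Γ u u) ≤ (2 * L ^ 2) * I φ := by
      rw [← I_smul]
      refine I_mono m1 (mem_smul _ hφ1.1) ?_
      rw [le_iff_ae]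
      filter_upwards [mul_ae φ (C.Γ u u), smul_ae φ (2 * L ^ 2), nonneg_iff_ae.1 hφ0, hgr]
        with x a1 a2 a3 a4
      rw [a1, a2, mul_comm (2 * L ^ 2)]
      refine mul_le_mul_of_nonneg_left (a4.trans ?_) a3
      rw [div_le_iff₀ hk2]
      have : (1 : ℝ) ≤ 2 * (1 + 2 * lam * κ) := by linarith only [hk1]
      calc L ^ 2 = L ^ 2 * 1 := (mul_one _).symm
        _ ≤ L ^ 2 * (2 * (1 + 2 * lam * κ)) := mul_le_mul_of_nonneg_left this (sq_nonneg L)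
        _ = 2 * L ^ 2 * (1 + 2 * lam * κ) := by ring
    have b3 : (2 * δ)⁻¹ * (I (φ * C.Γ u u) - I (C.Γ u u * σ)) ≤ (2 * lam)⁻¹ * I (φ * C.Γ u u) := by
      have q1 : (2 * δ)⁻¹ ≤ (2 * lam)⁻¹ := by
        apply inv_anti₀ (by positivity); linarith only [hld]
      have q2 : (2 * δ)⁻¹ * (I (φ * C.Γ u u) - I (C.Γ u u * σ)) ≤ (2 * δ)⁻¹ * I (φ * C.Γ u u) :=
        mul_le_mul_of_nonneg_left (by linarith only [n2]) (by positivity)
      exact q2.trans (mul_le_mul_of_nonneg_right q1 n1)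
    have b4 : -(κ * I (φ * C.Γ u u)) ≤ |κ| * (2 * L ^ 2 * I φ) := by
      have q1 : -(κ * I (φ * C.Γ u u)) ≤ |κ| * I (φ * C.Γ u u) := by
        have := neg_abs_le κ
        have q := mul_le_mul_of_nonneg_right this n1
        linarith only [q]
      exact q1.trans (mul_le_mul_of_nonneg_left b2 (abs_nonneg κ))
    have b5 : N⁻¹ * I (φ * h ^ 2) ≤ |κ| * (2 * L ^ 2 * I φ) + (2 * lam)⁻¹ * (L ^ 2 * I φ) := by
      have q1 : (2 * lam)⁻¹ * I (φ * C.Γ f f) ≤ (2 * lam)⁻¹ * (L ^ 2 * I φ) :=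
        mul_le_mul_of_nonneg_left b1 (by positivity)
      linarith only [hlow, hbe, b3, b4, q1]
    have b6 : |κ| * (2 * L ^ 2 * I φ) ≤ (2 * lam)⁻¹ * (L ^ 2 * I φ) := by
      have q0 : 2 * |κ| ≤ (2 * lam)⁻¹ := by
        rw [inv_eq_one_div, le_div_iff₀ (by positivity)]
        linarith only [hl2]
      have q1 : 0 ≤ L ^ 2 * I φ := mul_nonneg (sq_nonneg L) n3
      calc |κ| * (2 * L ^ 2 * I φ) = 2 * |κ| * (L ^ 2 * I φ) := by ring
        _ ≤ (2 * lam)⁻¹ * (L ^ 2 * I φ) := mul_le_mul_of_nonneg_right q0 q1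
    have b7 : I (φ * h ^ 2) ≤ N * (lam⁻¹ * (L ^ 2 * I φ)) := by
      have q1 : N⁻¹ * I (φ * h ^ 2) ≤ lam⁻¹ * (L ^ 2 * I φ) := by
        have : (2 * lam)⁻¹ * (L ^ 2 * I φ) + (2 * lam)⁻¹ * (L ^ 2 * I φ) =
          lam⁻¹ * (L ^ 2 * I φ) := by rw [mul_inv]; ring
        linarith only [b5, b6, this]
      have q2 := mul_le_mul_of_nonneg_left q1 hN.le
      rwa [← mul_assoc, mul_inv_cancel₀ hN.ne', one_mul] at q2
    refine b7.trans ?_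
    have q3 : N * (lam⁻¹ * (L ^ 2 * I φ)) = N * L ^ 2 / lam * I φ := by
      field_simp
    rw [q3]
    exact mul_le_mul_of_nonneg_left hφ1.2 hN0
  filter_upwards [key, sq_ae (C.J δ h)] with x a1 a2
  rw [a2] at a1
  have e5 : N * L ^ 2 / lam = (√N * L / √lam) ^ 2 := by
    rw [div_pow, mul_pow, Real.sq_sqrt hN.le, Real.sq_sqrt hl.le]
  rw [e5] at a1
  exact abs_le_of_sq_le_sq a1 (by positivity)

/-- one step, from `lam` to `lam/4` -/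
theorem J_step [SigmaFinite m] (hN : 0 < N) (hB : C.BE κ N) {δ L : ℝ} (hδ : 0 < δ)
    (hd2 : 4 * δ * |κ| ≤ 1) (hL0 : 0 ≤ L) (hf : f ∈ C.A)
    (hL : ∀ᵐ x ∂m, |C.Γ f f x| ≤ L ^ 2) :
    ∀ᵐ x ∂m, |C.J δ f x - C.J (δ / 4) f x| ≤ 3 / 2 * (√N * L * √δ) := by
  have hD := hC.toIsDir
  have hl : 0 < δ / 4 := by positivity
  have hl2 : 4 * (δ / 4) * |κ| ≤ 1 := by
    have := mul_nonneg hδ.le (abs_nonneg κ)
    linarith only [this, hd2]
  have h1 := hC.lap_JJ_le hN hB (δ := δ) hl (by linarith only [hδ]) hl2 hL0 hf hL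
  have h2 := hD.J_sub_J hδ hl (hC.memLp _ hf.1)
  filter_upwards [h1, eq_iff_ae.1 h2, sub_ae (C.J δ f) (C.J (δ / 4) f),
    smul_ae (C.J δ ((δ / 4)⁻¹ • (C.J (δ / 4) f - f))) (δ - δ / 4)] with x a1 a2 a3 a4
  rw [← a3, a2, a4, abs_mul]
  have e1 : |δ - δ / 4| = 3 / 4 * δ := by
    rw [abs_of_nonneg (by linarith only [hδ])]; ring
  have e2 : √(δ / 4) = √δ / 2 := by
    rw [Real.sqrt_div hδ.le]
    congr 1
    rw [show (4 : ℝ) = 2 ^ 2 by norm_num]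
    exact Real.sqrt_sq (by norm_num)
  rw [e1]
  rw [e2] at a1
  have hs : 0 < √δ := Real.sqrt_pos.2 hδ
  calc 3 / 4 * δ * |C.J δ ((δ / 4)⁻¹ • (C.J (δ / 4) f - f)) x|
      ≤ 3 / 4 * δ * (√N * L / (√δ / 2)) := mul_le_mul_of_nonneg_left a1 (by positivity)
    _ = 3 / 2 * (√N * L * √δ) := by
        have e3 : δ = √δ * √δ := (Real.mul_self_sqrt hδ.le).symm
        field_simp
        rw [Real.sq_sqrt hδ.le]
        ring

/-- **sup norm closeness of the resolvent** for Lipschitz functions -/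
theorem J_sup [SigmaFinite m] (hN : 0 < N) (hB : C.BE κ N) {δ L : ℝ} (hδ : 0 < δ)
    (hd2 : 4 * δ * |κ| ≤ 1) (hL0 : 0 ≤ L) (hf : f ∈ C.A)
    (hL : ∀ᵐ x ∂m, |C.Γ f f x| ≤ L ^ 2) :
    ∀ᵐ x ∂m, |C.J δ f x - f x| ≤ 3 * (√N * L * √δ) := by
  have hD := hC.toIsDir
  have hf2 := hC.memLp _ hf.1
  -- the sequence `δ / 4 ^ n`
  have hpos : ∀ n : ℕ, 0 < δ / 4 ^ n := fun n => by positivity
  have hle : ∀ n : ℕ, 4 * (δ / 4 ^ n) * |κ| ≤ 1 := by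
    intro n
    refine le_trans ?_ hd2
    refine mul_le_mul_of_nonneg_right ?_ (abs_nonneg κ)
    have : δ / 4 ^ n ≤ δ := div_le_self hδ.le (one_le_pow₀ (by norm_num))
    linarith only [this]
  have hsq : ∀ n : ℕ, √(δ / 4 ^ n) = √δ / 2 ^ n := by
    intro n
    rw [Real.sqrt_div hδ.le]
    congr 1
    rw [show (4 : ℝ) ^ n = (2 ^ n) ^ 2 by rw [← pow_mul, mul_comm n 2, pow_mul]; norm_num]
    exact Real.sqrt_sq (by positivity)
  have hstep : ∀ n : ℕ, ∀ᵐ x ∂m, |C.J (δ / 4 ^ n) f x - C.J (δ / 4 ^ (n + 1)) f x| ≤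
      3 / 2 * (√N * L * √δ) / 2 ^ n := by
    intro n
    have h1 := hC.J_step hN hB (hpos n) (hle n) hL0 hf hL
    have e1 : δ / 4 ^ n / 4 = δ / 4 ^ (n + 1) := by rw [pow_succ, div_div]
    rw [e1, hsq n] at h1
    filter_upwards [h1] with x hx
    refine hx.trans (le_of_eq ?_)
    ring
  have hsum : ∀ᵐ x ∂m, ∀ n : ℕ, |C.J δ f x - C.J (δ / 4 ^ n) f x| ≤
      3 * (√N * L * √δ) * (1 - 1 / 2 ^ n) := by
    filter_upwards [ae_all_iff.2 hstep] with x hx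
    intro n
    induction n with
    | zero => simp
    | succ n ih =>
      have h1 := hx n
      have h2 := abs_sub_le (C.J δ f x) (C.J (δ / 4 ^ n) f x) (C.J (δ / 4 ^ (n + 1)) f x)
      have e : 3 * (√N * L * √δ) * (1 - 1 / 2 ^ (n + 1)) =
          3 * (√N * L * √δ) * (1 - 1 / 2 ^ n) + 3 / 2 * (√N * L * √δ) / 2 ^ n := by
        rw [pow_succ]; field_simp; ring
      rw [e]
      linarith only [h1, h2, ih]
  -- the limit
  have hlim : Tendsto (fun n : ℕ => I ((C.J (δ / 4 ^ n) f - f) ^ 2)) atTop (𝓝 0) := by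
    have h1 : Tendsto (fun n : ℕ => δ / 4 ^ n * I (C.Γ f f)) atTop (𝓝 0) := by
      have h2 : Tendsto (fun n : ℕ => (4 : ℝ) ^ n) atTop atTop :=
        tendsto_pow_atTop_atTop_of_one_lt (by norm_num)
      have h3 := (Tendsto.const_div_atTop h2 δ).mul_const (I (C.Γ f f))
      simpa using h3
    exact squeeze_zero (fun n => I_sq_nonneg _) (fun n => (hD.J_est (hpos n) hf.1).2.2) h1
  obtain ⟨ns, -, hns⟩ := exists_subseq_of_I_sq (fun n => hD.J_mem2 (hpos n) hf2) hf2 hlim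
  filter_upwards [hsum, hns] with x a1 a2
  have h4 : Tendsto (fun n => |C.J δ f x - C.J (δ / 4 ^ ns n) f x|) atTop
      (𝓝 |C.J δ f x - f x|) := (tendsto_const_nhds.sub a2).abs
  refine le_of_tendsto' h4 fun n => (a1 (ns n)).trans ?_
  have h5 : 0 ≤ 3 * (√N * L * √δ) := by positivity
  have h6 : (1 : ℝ) - 1 / 2 ^ ns n ≤ 1 := by
    have : (0 : ℝ) ≤ 1 / 2 ^ ns n := by positivity
    linarith only [this]
  calc 3 * (√N * L * √δ) * (1 - 1 / 2 ^ ns n) ≤ 3 * (√N * L * √δ) * 1 :=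
        mul_le_mul_of_nonneg_left h6 h5
    _ = 3 * (√N * L * √δ) := mul_one _

/-- the Laplacian of the resolvent of a Lipschitz function -/
theorem lap_J_sup [SigmaFinite m] (hN : 0 < N) (hB : C.BE κ N) {δ L : ℝ} (hδ : 0 < δ)
    (hd2 : 4 * δ * |κ| ≤ 1) (hL0 : 0 ≤ L) (hf : f ∈ C.A)
    (hL : ∀ᵐ x ∂m, |C.Γ f f x| ≤ L ^ 2) :
    ∀ᵐ x ∂m, |C.lap (C.J δ f) x| ≤ 3 * (√N * L) / √δ := by
  have hD := hC.toIsDir
  have h1 := hC.J_sup hN hB hδ hd2 hL0 hf hL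
  rw [hD.lap_eq (hD.J_isLap hδ (hC.memLp _ hf.1))]
  filter_upwards [h1, smul_ae (C.J δ f - f) δ⁻¹, sub_ae (C.J δ f) f] with x a1 a2 a3
  rw [a2, a3, abs_mul, abs_of_pos (inv_pos.2 hδ)]
  have hs : 0 < √δ := Real.sqrt_pos.2 hδ
  calc δ⁻¹ * |C.J δ f x - f x| ≤ δ⁻¹ * (3 * (√N * L * √δ)) :=
        mul_le_mul_of_nonneg_left a1 (by positivity)
    _ = 3 * (√N * L) / √δ := by
        field_simp
        rw [Real.sq_sqrt hδ.le]
        ring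

end IsGamma

end Vale.Agent.P233
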